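import Vale.Agent.Lib.P069.Tower

namespace Vale.Agent.Results.P069.QuestionOneFalse

open Vale.Agent.Lib.P069

/-- The statement of Q1, every reflexive AMUC renormable (infinite-dimensional, real) Banach
space is AUC renormable, is false. -/
theorem result :
    ¬ (∀ (X : Type) [NormedAddCommGroup X] [NormedSpace ℝ X] [CompleteSpace X],
        ¬ FiniteDimensional ℝ X →
        Function.Surjective (NormedSpace.inclusionInDoubleDual ℝ X) →
        (∃ N : Seminorm ℝ X, IsEquivNorm N ∧ IsAMUC N) →
        ∃ N : Seminorm ℝ X, IsEquivNorm N ∧ IsAUC N) := by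
  intro h
  have : CompleteSpace Top := top_complete
  obtain ⟨N, hN, hauc⟩ := h Top top_infinite top_reflexive
    ⟨normSeminorm ℝ Top, ⟨1, 1, one_pos, one_pos, fun x => by simp⟩, top_amuc⟩
  exact top_not_auc N hN hauc

end Vale.Agent.Results.P069.QuestionOneFalse
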